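import Vale.Agent.P245.H736.SBM

/-!
# P245, row RatCalc: the matrix field `P_s(S(y))`, `P_s(x) = x² / (s² + x²)`
-/

open Matrix Finset Filter Topology Set
open scoped ContDiff

noncomputable section

namespace Vale.Agent.P245.H736

open Vale.Agent.P245 Vale.Agent.P245.LS
open Vale.Agent.P254.S130 (dd fm)
open Vale.Agent.P254.SP620 (Dec mf DK DKL fr exists_dec hasFD_mf)
open Vale.Agent.P245.H792 (Ps Pd Pd_eq)

variable {n : ℕ} {ι : Type*} [Fintype ι] [DecidableEq ι]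

/-- the resolvent function `(s² + x²)⁻¹` -/
def rs (s x : ℝ) : ℝ := (s ^ 2 + x ^ 2)⁻¹

/-- the derivative of `P_s` -/
def Ps' (s x : ℝ) : ℝ := 2 * s ^ 2 * x / (s ^ 2 + x ^ 2) ^ 2

theorem hasDerivAt_Ps {s : ℝ} (hs : 0 < s) (x : ℝ) : HasDerivAt (Ps s) (Ps' s x) x := by
  have h1 : HasDerivAt (fun x : ℝ => x ^ 2) (2 * x) x := by
    simpa using hasDerivAt_pow 2 x
  have h2 : HasDerivAt (fun x : ℝ => s ^ 2 + x ^ 2) (2 * x) x := h1.const_add _
  have h0 : s ^ 2 + x ^ 2 ≠ 0 := by positivity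
  refine (h1.div h2 h0).congr_deriv ?_
  unfold Ps'
  congr 1
  ring

theorem dd_Ps {s : ℝ} (hs : 0 < s) (x y : ℝ) : dd (Ps s) (Ps' s) x y = Pd s x y := by
  unfold Vale.Agent.P254.S130.dd
  split_ifs with h
  · subst h
    unfold Ps' H792.Pd
    congr 1 <;> ring
  · rw [Pd_eq hs.ne' h]

theorem abs_Pd_le {s : ℝ} (hs : 0 < s) (x y : ℝ) : |Pd s x y| ≤ 1 / s := by
  have h1 : 0 < s ^ 2 + x ^ 2 := by positivity
  have h2 : 0 < s ^ 2 + y ^ 2 := by positivity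
  have hx : |x| * s ≤ (s ^ 2 + x ^ 2) / 2 := by
    have := sq_nonneg (|x| - s)
    have h := sq_abs x
    nlinarith
  have hy : |y| * s ≤ (s ^ 2 + y ^ 2) / 2 := by
    have := sq_nonneg (|y| - s)
    have h := sq_abs y
    nlinarith
  unfold H792.Pd
  rw [abs_div, abs_of_pos (mul_pos h1 h2), abs_mul, abs_of_pos (by positivity : 0 < s ^ 2),
    div_le_div_iff₀ (mul_pos h1 h2) hs, one_mul]
  have h3 : |x + y| ≤ |x| + |y| := abs_add_le _ _
  have h4 : s ^ 2 ≤ s ^ 2 + x ^ 2 := by nlinarith [sq_nonneg x]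
  have h5 : s ^ 2 ≤ s ^ 2 + y ^ 2 := by nlinarith [sq_nonneg y]
  calc s ^ 2 * |x + y| * s ≤ s ^ 2 * (|x| + |y|) * s := by
        have : 0 ≤ s ^ 2 := by positivity
        exact mul_le_mul_of_nonneg_right (mul_le_mul_of_nonneg_left h3 this) hs.le
    _ = s ^ 2 * (|x| * s) + s ^ 2 * (|y| * s) := by ring
    _ ≤ (s ^ 2 + y ^ 2) * ((s ^ 2 + x ^ 2) / 2) + (s ^ 2 + x ^ 2) * ((s ^ 2 + y ^ 2) / 2) := by
        have ha : 0 ≤ |x| * s := mul_nonneg (abs_nonneg _) hs.le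
        have hb : 0 ≤ |y| * s := mul_nonneg (abs_nonneg _) hs.le
        exact add_le_add (mul_le_mul h5 hx ha h2.le) (mul_le_mul h4 hy hb h1.le)
    _ = (s ^ 2 + x ^ 2) * (s ^ 2 + y ^ 2) := by ring

/-! ### algebra -/

theorem sq_eq {A U : Matrix ι ι ℝ} {m : ι → ℝ} (h : Dec A U m) (s : ℝ) :
    s ^ 2 • (1 : Matrix ι ι ℝ) + A * A = mf (fun x => s ^ 2 + x ^ 2) A := by
  rw [h.mf_add (fun _ => s ^ 2) (fun x => x ^ 2), h.mf_const]
  congr 1
  have h1 := h.mf_mul (fun x => x) (fun x => x)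
  rw [h.mf_id] at h1
  rw [h1]
  congr 1
  funext x
  ring

theorem det_sq {A U : Matrix ι ι ℝ} {m : ι → ℝ} (h : Dec A U m) (s : ℝ) :
    (s ^ 2 • (1 : Matrix ι ι ℝ) + A * A).det = ∏ i, (s ^ 2 + m i ^ 2) := by
  rw [sq_eq h, h.mf_eq, Matrix.det_mul, Matrix.det_mul, Matrix.det_diagonal]
  have h1 : U.det * Uᵀ.det = 1 := by
    rw [← Matrix.det_mul, h.orth', Matrix.det_one]
  calc U.det * (∏ i, (s ^ 2 + m i ^ 2)) * Uᵀ.det
      = (U.det * Uᵀ.det) * ∏ i, (s ^ 2 + m i ^ 2) := by ring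
    _ = _ := by rw [h1, one_mul]

theorem det_sq_ge {A : Matrix ι ι ℝ} (hA : Aᵀ = A) (s : ℝ) :
    (s ^ 2) ^ Fintype.card ι ≤ (s ^ 2 • (1 : Matrix ι ι ℝ) + A * A).det := by
  obtain ⟨U, m, h⟩ := exists_dec hA
  rw [det_sq h]
  calc (s ^ 2) ^ Fintype.card ι = ∏ _i : ι, s ^ 2 := by
        rw [Finset.prod_const, Finset.card_univ]
    _ ≤ ∏ i, (s ^ 2 + m i ^ 2) := Finset.prod_le_prod (fun _ _ => sq_nonneg _) fun i _ => by
        nlinarith [sq_nonneg (m i)]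

theorem mf_rs {A : Matrix ι ι ℝ} (hA : Aᵀ = A) {s : ℝ} (hs : 0 < s) :
    mf (rs s) A = (s ^ 2 • (1 : Matrix ι ι ℝ) + A * A)⁻¹ := by
  obtain ⟨U, m, h⟩ := exists_dec hA
  refine (Matrix.inv_eq_right_inv ?_).symm
  rw [sq_eq h, h.mf_mul]
  have e : (fun x : ℝ => (s ^ 2 + x ^ 2) * rs s x) = fun _ => 1 := by
    funext x
    unfold rs
    exact mul_inv_cancel₀ (by positivity)
  rw [e, h.mf_const, one_smul]

theorem mf_Ps {A : Matrix ι ι ℝ} (hA : Aᵀ = A) {s : ℝ} (hs : 0 < s) :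
    mf (Ps s) A = 1 - s ^ 2 • mf (rs s) A := by
  obtain ⟨U, m, h⟩ := exists_dec hA
  have e : Ps s = fun x => 1 - s ^ 2 * rs s x := by
    funext x
    have h0 : s ^ 2 + x ^ 2 ≠ 0 := by positivity
    unfold rs H792.Ps
    field_simp
    ring
  rw [e, h.mf_sub (fun _ => 1) (fun x => s ^ 2 * rs s x), h.mf_const, one_smul,
    h.mf_smul (s ^ 2) (rs s)]

theorem mf_symm' {A : Matrix ι ι ℝ} (hA : Aᵀ = A) (F : ℝ → ℝ) : (mf F A)ᵀ = mf F A := by
  obtain ⟨U, m, h⟩ := exists_dec hA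
  exact h.mf_symm F

/-- the frame form of the derivative of `P_s` -/
theorem DK_Ps {A U : Matrix ι ι ℝ} {m : ι → ℝ} (h : Dec A U m) {s : ℝ} (hs : 0 < s)
    (X : Matrix ι ι ℝ) :
    s ^ 2 • (mf (rs s) A * (X * A + A * X) * mf (rs s) A) = DK (Ps s) (Ps' s) U m X := by
  have hR : mf (rs s) A = U * diagonal (fun i => rs s (m i)) * Uᵀ := h.mf_eq _
  unfold Vale.Agent.P254.SP620.DK
  have h1 : Uᵀ * (s ^ 2 • (mf (rs s) A * (X * A + A * X) * mf (rs s) A)) * U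
      = of fun i j => dd (Ps s) (Ps' s) (m i) (m j) * (Uᵀ * X * U) i j := by
    rw [hR]
    have h2 : Uᵀ * (s ^ 2 • (U * diagonal (fun i => rs s (m i)) * Uᵀ * (X * A + A * X) *
        (U * diagonal (fun i => rs s (m i)) * Uᵀ))) * U
        = s ^ 2 • (diagonal (fun i => rs s (m i)) *
          ((Uᵀ * X * U) * diagonal m + diagonal m * (Uᵀ * X * U)) *
          diagonal (fun i => rs s (m i))) := by
      rw [Matrix.mul_smul, Matrix.smul_mul]
      congr 1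
      have h3 : Uᵀ * (X * A + A * X) * U
          = (Uᵀ * X * U) * diagonal m + diagonal m * (Uᵀ * X * U) := by
        rw [Matrix.mul_add, Matrix.add_mul]
        congr 1
        · calc Uᵀ * (X * A) * U = Uᵀ * (X * (U * diagonal m * Uᵀ)) * U := by rw [← h.eq]
            _ = Uᵀ * X * U * diagonal m * (Uᵀ * U) := by simp only [Matrix.mul_assoc]
            _ = _ := by rw [h.orth, Matrix.mul_one]
        · calc Uᵀ * (A * X) * U = Uᵀ * ((U * diagonal m * Uᵀ) * X) * U := by rw [← h.eq]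
            _ = (Uᵀ * U) * diagonal m * (Uᵀ * X * U) := by simp only [Matrix.mul_assoc]
            _ = _ := by rw [h.orth, Matrix.one_mul]
      rw [← h3]
      calc _ = (Uᵀ * U) * diagonal (fun i => rs s (m i)) * (Uᵀ * (X * A + A * X) * U) *
            diagonal (fun i => rs s (m i)) * (Uᵀ * U) := by simp only [Matrix.mul_assoc]
        _ = _ := by rw [h.orth, Matrix.one_mul, Matrix.mul_one]
    rw [h2]
    ext i j
    rw [Matrix.smul_apply, Matrix.mul_diagonal, Matrix.diagonal_mul, Matrix.add_apply,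
      Matrix.mul_diagonal, Matrix.diagonal_mul, of_apply, dd_Ps hs, smul_eq_mul]
    unfold rs H792.Pd
    have e1 : s ^ 2 + m i ^ 2 ≠ 0 := by positivity
    have e2 : s ^ 2 + m j ^ 2 ≠ 0 := by positivity
    field_simp
    ring
  rw [← h1]
  calc _ = (U * Uᵀ) * (s ^ 2 • (mf (rs s) A * (X * A + A * X) * mf (rs s) A)) * (U * Uᵀ) := by
        rw [h.orth', Matrix.one_mul, Matrix.mul_one]
    _ = _ := by simp only [Matrix.mul_assoc]

/-! ### the field -/

variable {S : (Fin n → ℝ) → Matrix ι ι ℝ} {s : ℝ}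

theorem SBM_sq (hS : SBM S) (s : ℝ) : SBM (fun y => s ^ 2 • (1 : Matrix ι ι ℝ) + S y * S y) :=
  (SBM.const _).add (hS.mul hS)

theorem pos_det (hS : SBM S) (hsym : ∀ y, (S y)ᵀ = S y) (hs : 0 < s) :
    Pos (fun y => (s ^ 2 • (1 : Matrix ι ι ℝ) + S y * S y).det) :=
  ⟨(SBM_sq hS s).det, (s ^ 2) ^ Fintype.card ι, by positivity, fun y => det_sq_ge (hsym y) s⟩

theorem SBM_rs (hS : SBM S) (hsym : ∀ y, (S y)ᵀ = S y) (hs : 0 < s) :
    SBM (fun y => mf (rs s) (S y)) := by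
  have e : (fun y => mf (rs s) (S y))
      = fun y => (s ^ 2 • (1 : Matrix ι ι ℝ) + S y * S y)⁻¹ := by
    funext y
    exact mf_rs (hsym y) hs
  rw [e]
  exact (SBM_sq hS s).inv (pos_det hS hsym hs)

/-- **the entries of `P_s(S(y))` are in `SB`** -/
theorem SBM_Ps (hS : SBM S) (hsym : ∀ y, (S y)ᵀ = S y) (hs : 0 < s) :
    SBM (fun y => mf (Ps s) (S y)) := by
  have e : (fun y => mf (Ps s) (S y)) = fun y => 1 - s ^ 2 • mf (rs s) (S y) := by
    funext y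
    exact mf_Ps (hsym y) hs
  rw [e]
  exact (SBM.const _).sub ((SBM_rs hS hsym hs).const_smul _)

theorem pdM_rs (hS : SBM S) (hsym : ∀ y, (S y)ᵀ = S y) (hs : 0 < s) (e : Fin n)
    (y : Fin n → ℝ) :
    pdM (fun y => mf (rs s) (S y)) e y
      = -(mf (rs s) (S y) * (pdM S e y * S y + S y * pdM S e y) * mf (rs s) (S y)) := by
  have h1 : (fun y => mf (rs s) (S y))
      = fun y => (s ^ 2 • (1 : Matrix ι ι ℝ) + S y * S y)⁻¹ := by
    funext y
    exact mf_rs (hsym y) hs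
  rw [h1, pdM_inv (SBM_sq hS s) (pos_det hS hsym hs), ← congrFun h1 y]
  rw [pdM_add (SBM.const _) (hS.mul hS), pdM_const, pdM_mul hS hS, zero_add]

/-- **`∂_e P_s(S) = s² R (T S + S T) R`, `T = ∂_e S`, `R = (s² + S²)⁻¹`** -/
theorem pdM_Ps (hS : SBM S) (hsym : ∀ y, (S y)ᵀ = S y) (hs : 0 < s) (e : Fin n)
    (y : Fin n → ℝ) :
    pdM (fun y => mf (Ps s) (S y)) e y
      = s ^ 2 • (mf (rs s) (S y) * (pdM S e y * S y + S y * pdM S e y) * mf (rs s) (S y)) := by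
  have h1 : (fun y => mf (Ps s) (S y)) = fun y => 1 - s ^ 2 • mf (rs s) (S y) := by
    funext y
    exact mf_Ps (hsym y) hs
  rw [h1, pdM_sub (SBM.const _) ((SBM_rs hS hsym hs).const_smul _), pdM_const,
    pdM_const_smul _ (SBM_rs hS hsym hs), pdM_rs hS hsym hs, smul_neg, zero_sub, neg_neg]

/-- the same in every spectral frame: Daleckii-Krein -/
theorem pdM_Ps_DK (hS : SBM S) (hsym : ∀ y, (S y)ᵀ = S y) (hs : 0 < s) (e : Fin n)
    {y : Fin n → ℝ} {U : Matrix ι ι ℝ} {m : ι → ℝ} (h : Dec (S y) U m) :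
    pdM (fun y => mf (Ps s) (S y)) e y = DK (Ps s) (Ps' s) U m (pdM S e y) := by
  rw [pdM_Ps hS hsym hs, DK_Ps h hs]

/-- entrywise -/
theorem pd_Ps_DK (hS : SBM S) (hsym : ∀ y, (S y)ᵀ = S y) (hs : 0 < s) (e : Fin n)
    {y : Fin n → ℝ} {U : Matrix ι ι ℝ} {m : ι → ℝ} (h : Dec (S y) U m) (i j : ι) :
    pd (fun y => mf (Ps s) (S y) i j) e y = DK (Ps s) (Ps' s) U m (pdM S e y) i j := by
  rw [← pdM_Ps_DK hS hsym hs e h]
  rfl

/-! ### bounds -/

theorem fr_pdM_Ps_le (hS : SBM S) (hsym : ∀ y, (S y)ᵀ = S y) (hs : 0 < s) (e : Fin n)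
    (y : Fin n → ℝ) :
    fr (pdM (fun y => mf (Ps s) (S y)) e y) ≤ (1 / s) ^ 2 * fr (pdM S e y) := by
  obtain ⟨U, m, h⟩ := exists_dec (hsym y)
  rw [pdM_Ps_DK hS hsym hs e h]
  refine Vale.Agent.P254.SP620.fr_DK_le h.orth (fun i j => ?_) _
  rw [dd_Ps hs]
  exact abs_Pd_le hs _ _

theorem abs_Ps_le_one (hsym : ∀ y, (S y)ᵀ = S y) (s : ℝ) (y : Fin n → ℝ) (i j : ι) :
    |mf (Ps s) (S y) i j| ≤ 1 := by
  obtain ⟨U, m, h⟩ := exists_dec (hsym y)
  refine h.mf_le (fun k => ?_) zero_le_one i j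
  rw [abs_of_nonneg (H792.Ps_nonneg _ _)]
  exact H792.Ps_le_one _ _

/-- the partial derivatives of the entries are bounded, uniformly in `s ≥ s0` -/
theorem abs_pd_Ps_le (hS : SBM S) (hsym : ∀ y, (S y)ᵀ = S y) :
    ∃ C, 0 ≤ C ∧ ∀ s, 0 < s → ∀ (e : Fin n) (y : Fin n → ℝ) (i j : ι),
      |pd (fun y => mf (Ps s) (S y) i j) e y| ≤ C / s := by
  have h1 : ∀ (e : Fin n) (i j : ι), ∃ C, 0 ≤ C ∧ ∀ y, |pd (fun y => S y i j) e y| ≤ C :=
    fun e i j => ((hS i j).pd e).bdd'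
  choose C hC0 hC using h1
  set D : ℝ := ∑ e, ∑ i, ∑ j, C e i j with hD
  have hD0 : 0 ≤ D := Finset.sum_nonneg fun e _ => Finset.sum_nonneg fun i _ =>
    Finset.sum_nonneg fun j _ => hC0 e i j
  have hle : ∀ e i j, C e i j ≤ D := by
    intro e i j
    calc C e i j ≤ ∑ j, C e i j :=
          Finset.single_le_sum (f := fun j => C e i j) (fun _ _ => hC0 _ _ _) (Finset.mem_univ j)
      _ ≤ ∑ i, ∑ j, C e i j := Finset.single_le_sum (f := fun i => ∑ j, C e i j)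
          (fun _ _ => Finset.sum_nonneg fun _ _ => hC0 _ _ _) (Finset.mem_univ i)
      _ ≤ D := Finset.single_le_sum (f := fun e => ∑ i, ∑ j, C e i j)
          (fun _ _ => Finset.sum_nonneg fun _ _ => Finset.sum_nonneg fun _ _ => hC0 _ _ _)
          (Finset.mem_univ e)
  refine ⟨Fintype.card ι * D, by positivity, fun s hs e y i j => ?_⟩
  have h2 := fr_pdM_Ps_le hS hsym hs e y
  have h3 : fr (pdM S e y) ≤ (Fintype.card ι * D) ^ 2 :=
    Vale.Agent.P254.SP620.fr_le fun i j => (hC e i j y).trans (hle e i j)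
  have h4 : fr (pdM (fun y => mf (Ps s) (S y)) e y) ≤ (Fintype.card ι * D / s) ^ 2 := by
    calc _ ≤ _ := h2
      _ ≤ (1 / s) ^ 2 * (Fintype.card ι * D) ^ 2 :=
        mul_le_mul_of_nonneg_left h3 (sq_nonneg _)
      _ = _ := by ring
  exact Vale.Agent.P254.SP620.entry_le (by positivity) h4 i j

/-! ### joint continuity in `(s, y)` -/

theorem contOn_rs (hc : ∀ i j, Continuous fun y => S y i j) (hsym : ∀ y, (S y)ᵀ = S y) (i j : ι) :
    ContinuousOn (fun p : ℝ × (Fin n → ℝ) => mf (rs p.1) (S p.2) i j)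
      (Ioi (0 : ℝ) ×ˢ (univ : Set (Fin n → ℝ))) := by
  have hcM : Continuous fun p : ℝ × (Fin n → ℝ) => S p.2 := by
    refine continuous_matrix fun i j => ?_
    exact (hc i j).comp continuous_snd
  have hM : Continuous fun p : ℝ × (Fin n → ℝ) =>
      p.1 ^ 2 • (1 : Matrix ι ι ℝ) + S p.2 * S p.2 :=
    ((continuous_fst.pow 2).smul continuous_const).add (hcM.matrix_mul hcM)
  have h1 : ContinuousOn (fun p : ℝ × (Fin n → ℝ) =>
      (p.1 ^ 2 • (1 : Matrix ι ι ℝ) + S p.2 * S p.2).adjugate i j /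
        (p.1 ^ 2 • (1 : Matrix ι ι ℝ) + S p.2 * S p.2).det)
      (Ioi (0 : ℝ) ×ˢ (univ : Set (Fin n → ℝ))) := by
    refine ContinuousOn.div ?_ ?_ fun p hp => ?_
    · exact (hM.matrix_adjugate.matrix_elem i j).continuousOn
    · exact hM.matrix_det.continuousOn
    · have h2 := det_sq_ge (hsym p.2) p.1
      have h3 : 0 < (p.1 ^ 2) ^ Fintype.card ι := by
        have : 0 < p.1 := hp.1
        positivity
      exact (h3.trans_le h2).ne'
  refine h1.congr fun p hp => ?_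
  show mf (rs p.1) (S p.2) i j = _
  rw [mf_rs (hsym p.2) hp.1, Matrix.inv_def, Ring.inverse_eq_inv', Matrix.smul_apply, smul_eq_mul]
  exact (div_eq_inv_mul _ _).symm

theorem contOn_Ps (hc : ∀ i j, Continuous fun y => S y i j) (hsym : ∀ y, (S y)ᵀ = S y) (i j : ι) :
    ContinuousOn (fun p : ℝ × (Fin n → ℝ) => mf (Ps p.1) (S p.2) i j)
      (Ioi (0 : ℝ) ×ˢ (univ : Set (Fin n → ℝ))) := by
  have h1 : ContinuousOn (fun p : ℝ × (Fin n → ℝ) =>
      (1 : Matrix ι ι ℝ) i j - p.1 ^ 2 * mf (rs p.1) (S p.2) i j)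
      (Ioi (0 : ℝ) ×ˢ (univ : Set (Fin n → ℝ))) :=
    continuousOn_const.sub ((continuous_fst.pow 2).continuousOn.mul (contOn_rs hc hsym i j))
  refine h1.congr fun p hp => ?_
  show mf (Ps p.1) (S p.2) i j = _
  rw [mf_Ps (hsym p.2) hp.1, Matrix.sub_apply, Matrix.smul_apply, smul_eq_mul]

theorem contOn_pd_Ps (hS : SBM S) (hsym : ∀ y, (S y)ᵀ = S y) (e : Fin n) (i j : ι) :
    ContinuousOn (fun p : ℝ × (Fin n → ℝ) => pd (fun y => mf (Ps p.1) (S y) i j) e p.2)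
      (Ioi (0 : ℝ) ×ˢ (univ : Set (Fin n → ℝ))) := by
  have hr := fun i j => contOn_rs (fun i j => (hS i j).continuous) hsym i j
  have h1 : ContinuousOn (fun p : ℝ × (Fin n → ℝ) => p.1 ^ 2 *
      ∑ l, (∑ k, mf (rs p.1) (S p.2) i k *
        (∑ a, pd (fun y => S y k a) e p.2 * S p.2 a l
          + ∑ a, S p.2 k a * pd (fun y => S y a l) e p.2)) * mf (rs p.1) (S p.2) l j)
      (Ioi (0 : ℝ) ×ˢ (univ : Set (Fin n → ℝ))) := by
    refine (continuous_fst.pow 2).continuousOn.mul ?_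
    refine continuousOn_finsetSum _ fun l _ => ContinuousOn.mul ?_ (hr l j)
    refine continuousOn_finsetSum _ fun k _ => (hr i k).mul (Continuous.continuousOn ?_)
    refine Continuous.add ?_ ?_
    · exact continuous_finsetSum _ fun a _ => (((hS k a).pd e).continuous.comp continuous_snd).mul
        ((hS a l).continuous.comp continuous_snd)
    · exact continuous_finsetSum _ fun a _ => ((hS k a).continuous.comp continuous_snd).mul
        (((hS a l).pd e).continuous.comp continuous_snd)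
  refine h1.congr fun p hp => ?_
  have h2 := pdM_Ps hS hsym hp.1 e p.2
  have h3 : pd (fun y => mf (Ps p.1) (S y) i j) e p.2
      = pdM (fun y => mf (Ps p.1) (S y)) e p.2 i j := rfl
  show pd (fun y => mf (Ps p.1) (S y) i j) e p.2 = _
  rw [h3, h2, Matrix.smul_apply, smul_eq_mul, Matrix.mul_apply]
  rfl

end Vale.Agent.P245.H736
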