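import Vale.Agent.P245.Bdl.B1
import Vale.Agent.P245.H792.Sym
import Vale.Agent.P254.SP.H620.DK

/-!
# P245, row RatCalc: matrix fields with entries in `SB`, inverse matrices, `P_s(S)`

`SBM A`: all entries of the matrix field `A` are smooth with bounded derivatives.
-/

open Matrix Finset Filter Topology Set
open scoped ContDiff

noncomputable section

namespace Vale.Agent.P245.H736

open Vale.Agent.P245 Vale.Agent.P245.LS
open Vale.Agent.P254.SP620 (Dec mf DK DKL fr exists_dec hasFD_mf)

variable {n : ℕ} {ι κ : Type*}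

/-- all entries are smooth with bounded derivatives -/
def SBM (A : (Fin n → ℝ) → Matrix ι κ ℝ) : Prop := ∀ i j, SB (fun y => A y i j)

/-- entrywise partial derivative of a matrix field -/
def pdM (A : (Fin n → ℝ) → Matrix ι κ ℝ) (e : Fin n) (y : Fin n → ℝ) : Matrix ι κ ℝ :=
  of fun i j => pd (fun y => A y i j) e y

theorem pdM_apply (A : (Fin n → ℝ) → Matrix ι κ ℝ) (e : Fin n) (y : Fin n → ℝ) (i : ι) (j : κ) :
    pdM A e y i j = pd (fun y => A y i j) e y := rfl

theorem pd_const (c : ℝ) (i : Fin n) : pd (fun _ : Fin n → ℝ => c) i = fun _ => 0 := by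
  funext y
  unfold pd
  rw [fderiv_const_apply]
  rfl

theorem pd_sum {α : Type*} (s : Finset α) {N : α → (Fin n → ℝ) → ℝ}
    (h : ∀ a ∈ s, Differentiable ℝ (N a)) (i : Fin n) :
    pd (fun y => ∑ a ∈ s, N a y) i = fun y => ∑ a ∈ s, pd (N a) i y := by
  funext y
  unfold pd
  rw [fderiv_fun_sum fun a ha => h a ha y]
  simp only [_root_.sum_apply]

theorem pd_const_mul {N : (Fin n → ℝ) → ℝ} (hN : Differentiable ℝ N) (c : ℝ) (i : Fin n) :
    pd (fun y => c * N y) i = fun y => c * pd N i y := by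
  rw [LS.pd_mul (differentiable_const c) hN, pd_const]
  funext y
  ring

theorem pd_sub {N M : (Fin n → ℝ) → ℝ} (hN : Differentiable ℝ N) (hM : Differentiable ℝ M)
    (i : Fin n) : pd (fun y => N y - M y) i = fun y => pd N i y - pd M i y := by
  funext y
  unfold pd
  rw [fderiv_fun_sub (hN y) (hM y)]
  rfl

theorem SB.prod {α : Type*} (s : Finset α) {N : α → (Fin n → ℝ) → ℝ}
    (h : ∀ i ∈ s, SB (N i)) : SB (fun y => ∏ i ∈ s, N i y) := by
  classical
  induction s using Finset.induction_on with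
  | empty => simpa using SB.const (n := n) 1
  | insert i s hi ih =>
    simp only [Finset.prod_insert hi]
    exact (h i (Finset.mem_insert_self _ _)).mul (ih fun j hj => h j (Finset.mem_insert_of_mem hj))

namespace SBM

variable {A B : (Fin n → ℝ) → Matrix ι κ ℝ}

theorem pdM (h : SBM A) (e : Fin n) : SBM (H736.pdM A e) := fun i j => (h i j).pd e

theorem const (C : Matrix ι κ ℝ) : SBM (fun _ : Fin n → ℝ => C) := fun i j => SB.const (C i j)

theorem add (hA : SBM A) (hB : SBM B) : SBM (fun y => A y + B y) := fun i j => (hA i j).add (hB i j)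

theorem sub (hA : SBM A) (hB : SBM B) : SBM (fun y => A y - B y) := fun i j => (hA i j).sub (hB i j)

theorem neg (hA : SBM A) : SBM (fun y => - A y) := fun i j => (hA i j).neg

theorem smul {N : (Fin n → ℝ) → ℝ} (hN : SB N) (hA : SBM A) : SBM (fun y => N y • A y) :=
  fun i j => hN.mul (hA i j)

theorem const_smul (c : ℝ) (hA : SBM A) : SBM (fun y => c • A y) := fun i j => (hA i j).const_mul c

theorem transpose (hA : SBM A) : SBM (fun y => (A y)ᵀ) := fun i j => hA j i

theorem mul {ν : Type*} [Fintype κ] {C : (Fin n → ℝ) → Matrix κ ν ℝ} (hA : SBM A) (hC : SBM C) :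
    SBM (fun y => A y * C y) := fun i j => by
  have e : (fun y => (A y * C y) i j) = fun y => ∑ k, A y i k * C y k j := by
    funext y
    exact Matrix.mul_apply
  rw [e]
  exact SB.sum _ fun k _ => (hA i k).mul (hC k j)

variable [Fintype ι] [DecidableEq ι] {M : (Fin n → ℝ) → Matrix ι ι ℝ}

omit [DecidableEq ι] in
theorem trace (hM : SBM M) : SB (fun y => (M y).trace) := SB.sum _ fun k _ => hM k k

theorem det (hM : SBM M) : SB (fun y => (M y).det) := by
  have e : (fun y => (M y).det) = fun y => ∑ σ : Equiv.Perm ι,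
      ((Equiv.Perm.sign σ : ℤ) : ℝ) * ∏ i, M y (σ i) i := by
    funext y
    exact Matrix.det_apply' (M y)
  rw [e]
  exact SB.sum _ fun σ _ => (SB.prod _ fun i _ => hM (σ i) i).const_mul _

theorem adjugate (hM : SBM M) : SBM (fun y => (M y).adjugate) := fun i j => by
  have e : (fun y => (M y).adjugate i j)
      = fun y => ((M y).updateRow j (Pi.single i 1)).det := by
    funext y
    exact Matrix.adjugate_apply (M y) i j
  rw [e]
  refine SBM.det (M := fun y => (M y).updateRow j (Pi.single i 1)) fun a b => ?_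
  by_cases h : a = j
  · have e2 : (fun y => (M y).updateRow j (Pi.single i 1) a b)
        = fun _ => (Pi.single i 1 : ι → ℝ) b := by
      funext y
      rw [h, Matrix.updateRow_self]
    rw [e2]
    exact SB.const _
  · have e2 : (fun y => (M y).updateRow j (Pi.single i 1) a b) = fun y => M y a b := by
      funext y
      rw [Matrix.updateRow_ne h]
    rw [e2]
    exact hM a b

theorem inv (hM : SBM M) (hd : Pos (fun y => (M y).det)) : SBM (fun y => (M y)⁻¹) := fun i j => by
  have e : (fun y => (M y)⁻¹ i j) = fun y => (M y).adjugate i j / (M y).det := by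
    funext y
    rw [Matrix.inv_def, Ring.inverse_eq_inv', Matrix.smul_apply, smul_eq_mul, div_eq_inv_mul]
  rw [e]
  exact hd.div (hM.adjugate i j)

end SBM

/-! ### derivative rules for matrix fields -/

theorem pdM_add {A B : (Fin n → ℝ) → Matrix ι κ ℝ} (hA : SBM A) (hB : SBM B) (e : Fin n)
    (y : Fin n → ℝ) : pdM (fun y => A y + B y) e y = pdM A e y + pdM B e y := by
  ext i j
  exact congrFun (LS.pd_add (hA i j).differentiable (hB i j).differentiable e) y

theorem pdM_sub {A B : (Fin n → ℝ) → Matrix ι κ ℝ} (hA : SBM A) (hB : SBM B) (e : Fin n)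
    (y : Fin n → ℝ) : pdM (fun y => A y - B y) e y = pdM A e y - pdM B e y := by
  ext i j
  exact congrFun (pd_sub (hA i j).differentiable (hB i j).differentiable e) y

theorem pdM_const (C : Matrix ι κ ℝ) (e : Fin n) (y : Fin n → ℝ) :
    pdM (fun _ : Fin n → ℝ => C) e y = 0 := by
  ext i j
  exact congrFun (pd_const (C i j) e) y

theorem pdM_const_smul {A : (Fin n → ℝ) → Matrix ι κ ℝ} (c : ℝ) (hA : SBM A) (e : Fin n)
    (y : Fin n → ℝ) : pdM (fun y => c • A y) e y = c • pdM A e y := by
  ext i j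
  exact congrFun (pd_const_mul (hA i j).differentiable c e) y

theorem pdM_mul {ν : Type*} [Fintype κ] {A : (Fin n → ℝ) → Matrix ι κ ℝ}
    {C : (Fin n → ℝ) → Matrix κ ν ℝ} (hA : SBM A) (hC : SBM C) (e : Fin n)
    (y : Fin n → ℝ) :
    pdM (fun y => A y * C y) e y = pdM A e y * C y + A y * pdM C e y := by
  ext i j
  rw [pdM_apply]
  have h : (fun y => (A y * C y) i j) = fun y => ∑ k, A y i k * C y k j := by
    funext y
    exact Matrix.mul_apply
  rw [h, pd_sum _ (N := fun k y => A y i k * C y k j)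
    (fun k _ => ((hA i k).mul (hC k j)).differentiable)]
  rw [Matrix.add_apply, Matrix.mul_apply, Matrix.mul_apply, ← Finset.sum_add_distrib]
  refine Finset.sum_congr rfl fun k _ => ?_
  rw [congrFun (LS.pd_mul (hA i k).differentiable (hC k j).differentiable e) y, pdM_apply, pdM_apply]
  ring

/-- `∂_e (M⁻¹) = - M⁻¹ (∂_e M) M⁻¹` -/
theorem pdM_inv [Fintype ι] [DecidableEq ι] {M : (Fin n → ℝ) → Matrix ι ι ℝ} (hM : SBM M)
    (hd : Pos (fun y => (M y).det)) (e : Fin n) (y : Fin n → ℝ) :
    pdM (fun y => (M y)⁻¹) e y = -((M y)⁻¹ * pdM M e y * (M y)⁻¹) := by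
  have hu : ∀ y, IsUnit (M y).det := fun y => isUnit_iff_ne_zero.2 (hd.pos y).ne'
  have h1 := pdM_mul hM (hM.inv hd) e y
  have h2 : (fun y => M y * (M y)⁻¹) = fun _ => (1 : Matrix ι ι ℝ) := by
    funext y
    exact Matrix.mul_nonsing_inv _ (hu y)
  rw [h2, pdM_const] at h1
  have h3 : (M y)⁻¹ * (pdM M e y * (M y)⁻¹ + M y * pdM (fun y => (M y)⁻¹) e y) = 0 := by
    rw [← h1, Matrix.mul_zero]
  rw [Matrix.mul_add, ← Matrix.mul_assoc, ← Matrix.mul_assoc,
    Matrix.nonsing_inv_mul _ (hu y), Matrix.one_mul] at h3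
  exact eq_neg_of_add_eq_zero_right h3

end Vale.Agent.P245.H736
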